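import Mathlib
import Vale.Agent.H16.Thorp.Defs
import Vale.Agent.H16.Thorp.Final

/-!
# P162: the Thorp shuffle of `n = 2 ^ d` cards mixes in at most `200 d ^ 2` shuffles
-/

namespace Vale.Agent.Results.P162.LogSquared

open Vale.Agent.H16.Thorp

theorem result (d : ℕ) (hd : 1 ≤ d) (m : ℕ) (hm : 2 * m = 2 ^ d) :
    (∀ t : ℕ, 200 * d ^ 2 ≤ t →
      tv (convPow (q m) t) (unif (Equiv.Perm (Fin (2 * m)))) ≤ 1 / 4) ∧
      tmix m ≤ 200 * d ^ 2 := by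
  obtain ⟨e, rfl⟩ : ∃ e, d = e + 1 := ⟨d - 1, by omega⟩
  refine ⟨fun t ht => main e m hm t ht, ?_⟩
  exact Nat.sInf_le (main e m hm _ le_rfl)

end Vale.Agent.Results.P162.LogSquared
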